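import Vale.Agent.Lib.P183.SL64.Field
import Vale.Agent.Lib.P183.SL64.Data
import Vale.Agent.Lib.P183.SL64.Prog

/-!
# The finite checks, evaluated by the kernel
-/

namespace Vale.Agent.Lib.P183.SL64

/-- The class of a vector code. -/
def cl (c : Nat) : Nat := Nat.mod (Nat.shiftRight clsT (Nat.mul 3 c)) 8

/-- The order on class indices. -/
def leN (i j : Nat) : Bool :=
  Nat.beq (Nat.mod (Nat.shiftRight leMask (Nat.add (Nat.mul 7 i) j)) 2) 1

/-- Membership of a code in the set attached to a class index. -/
def memN (i c : Nat) : Bool := leN (cl c) i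

/-- The chosen code of each class. -/
def tauN (j : Nat) : Nat := Nat.mod (Nat.shiftRight tauTab (Nat.mul 12 j)) 4096

/-- The helper code of each class. -/
def uN (j : Nat) : Nat := Nat.mod (Nat.shiftRight uTab (Nat.mul 12 j)) 4096

/-- Square root on codes. -/
def sqN (x : Nat) : Nat := Nat.mod (Nat.shiftRight sqT (Nat.mul 6 x)) 64

/-- Bit test. -/
def tb (S c : Nat) : Bool := Nat.beq (Nat.mod (Nat.shiftRight S c) 2) 1

/-- Bit set. -/
def setB (S c : Nat) : Nat := Nat.lor S (Nat.shiftLeft 1 c)

/-- The four base codes. -/
def baseS : Nat := setB (setB (setB (setB 0 0) 1) 64) 65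

/-- One derivation step with operands `a`, `b`. -/
def stepA (a b S : Nat) : Nat := cond (tb S a) (cond (tb S b) (setB S (vopN a b)) S) S

/-- One derivation step with packed operands. -/
def stepS (st S : Nat) : Nat :=
  stepA (Nat.mod (Nat.shiftRight st 12) 4096) (Nat.mod st 4096) S

/-- Running a packed program. -/
noncomputable def runP (fuel P S : Nat) : Nat :=
  Nat.rec (motive := fun _ => Nat → Nat → Nat) (fun _ S => S)
    (fun _ ih P S => cond (Nat.beq P 0) S (cond (Nat.beq S 0) S
      (ih (Nat.shiftRight P 24) (stepS (Nat.mod P 16777216) S)))) fuel P S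

theorem runP_zero (P S : Nat) : runP 0 P S = S := rfl

theorem runP_succ (n P S : Nat) : runP (n + 1) P S =
    cond (Nat.beq P 0) S (cond (Nat.beq S 0) S
      (runP n (Nat.shiftRight P 24) (stepS (Nat.mod P 16777216) S))) := rfl

/-- All codes of the class set are in the bitset. -/
noncomputable def chkFinal (j S : Nat) : Bool :=
  allBelow 4096 (fun c => cond (memN j c) (tb S c) true)

/-- The generating programs. -/
def slpOf (j : Nat) : Nat :=
  match j with
  | 1 => slpA
  | 2 => slpB
  | 3 => slpC
  | 4 => slpD
  | 5 => slpE
  | 6 => slpT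
  | _ => 0

theorem slp_chk0 : chkFinal 0 (runP 5000 (slpOf 0) (setB baseS (tauN 0))) = true := by decide +kernel
theorem slp_chk1 : chkFinal 1 (runP 5000 (slpOf 1) (setB baseS (tauN 1))) = true := by decide +kernel
theorem slp_chk2 : chkFinal 2 (runP 5000 (slpOf 2) (setB baseS (tauN 2))) = true := by decide +kernel
theorem slp_chk3 : chkFinal 3 (runP 5000 (slpOf 3) (setB baseS (tauN 3))) = true := by decide +kernel
theorem slp_chk4 : chkFinal 4 (runP 5000 (slpOf 4) (setB baseS (tauN 4))) = true := by decide +kernel
theorem slp_chk5 : chkFinal 5 (runP 5000 (slpOf 5) (setB baseS (tauN 5))) = true := by decide +kernel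
theorem slp_chk6 : chkFinal 6 (runP 5000 (slpOf 6) (setB baseS (tauN 6))) = true := by decide +kernel

/-- The program of a vector code. -/
def progOf (v : Nat) : Nat :=
  Nat.mod (Nat.shiftRight progAll (Nat.mul 216 v))
    105312291668557186697918027683670432318895095400549111254310977536

/-- Every vector generates the chosen code of its class. -/
noncomputable def chkV : Bool :=
  allBelow 4096 (fun v => cond (Nat.beq (cl v) 0) true
    (tb (runP 9 (progOf v) (setB baseS v)) (tauN (cl v))))

theorem chkV_true : chkV = true := by decide +kernel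

/-- Join check. -/
noncomputable def chkJ (i j k P : Nat) : Bool :=
  tb (runP 9 P (setB (setB baseS (tauN i)) (tauN j))) (tauN k)

theorem j12 : chkJ 1 2 6 jpAB = true := by decide +kernel
theorem j13 : chkJ 1 3 6 jpAC = true := by decide +kernel
theorem j14 : chkJ 1 4 6 jpAD = true := by decide +kernel
theorem j15 : chkJ 1 5 6 jpAE = true := by decide +kernel
theorem j23 : chkJ 2 3 5 jpBC = true := by decide +kernel
theorem j24 : chkJ 2 4 6 jpBD = true := by decide +kernel
theorem j45 : chkJ 4 5 6 jpDE = true := by decide +kernel

/-- The sets of the proper classes are closed. -/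
noncomputable def chkClosed (i : Nat) : Bool :=
  allBelow 4096 (fun v => cond (memN i v)
    (allBelow 4096 (fun w => cond (memN i w) (memN i (vopN v w)) true)) true)

theorem closed0 : chkClosed 0 = true := by decide +kernel
theorem closed1 : chkClosed 1 = true := by decide +kernel
theorem closed2 : chkClosed 2 = true := by decide +kernel
theorem closed3 : chkClosed 3 = true := by decide +kernel
theorem closed4 : chkClosed 4 = true := by decide +kernel
theorem closed5 : chkClosed 5 = true := by decide +kernel

theorem top_chk : allBelow 4096 (fun c => memN 6 c) = true := by decide +kernel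

theorem cl_chk : allBelow 4096 (fun c => Nat.ble (cl c) 6) = true := by decide +kernel

/-- Converse check: a vector whose involution has columns in the set lies in the set. -/
theorem conv_chk : allBelow 7 (fun i => allBelow 4096 (fun v => cond (memN i v) true
    (cond (memN i (vopN 64 v)) (cond (memN i (vopN 1 v)) false true) true))) = true := by
  decide +kernel

theorem sq_chk : allBelow 64 (fun c => Nat.beq (gm (sqN c) (sqN c)) c) = true := by decide +kernel

theorem sq_mem_chk : allBelow 7 (fun i => allBelow 64 (fun c =>
    cond (memN i (Nat.add (Nat.mul 64 c) 1)) (memN i (Nat.mul 64 (sqN c))) true)) = true := by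
  decide +kernel

theorem tau_chk : allBelow 7 (fun i => cond (Nat.beq (tauN i) (vopN 64 (uN i)))
    (cond (memN i (uN i)) (Nat.beq (cl (tauN i)) i) false) false) = true := by decide +kernel

theorem le_refl_chk : allBelow 7 (fun i => leN i i) = true := by decide +kernel

theorem le_trans_chk : allBelow 7 (fun i => allBelow 7 (fun j => allBelow 7 (fun k =>
    cond (leN i j) (cond (leN j k) (leN i k) true) true))) = true := by decide +kernel

end Vale.Agent.Lib.P183.SL64
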