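import Vale.Agent.Lib.P183.SL64.Field

/-!
# The group `SL(2, F)` for the field `F` with 64 elements, its involutions and its action on vectors
-/

namespace Vale.Agent.Lib.P183.SL64

/-- The special linear group of degree two over `F`. -/
@[ext] structure T where
  a : F
  b : F
  c : F
  d : F
  det : a * d + b * c = 1

/-- Matrix product. -/
def T.mul' (x y : T) : T :=
  ⟨x.a * y.a + x.b * y.c, x.a * y.b + x.b * y.d, x.c * y.a + x.d * y.c, x.c * y.b + x.d * y.d, by
    have hx := x.det
    have hy := y.det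
    have h2 := two_eq_zero
    linear_combination (y.a * y.d + y.b * y.c) * hx + hy
      + (x.a * y.a * y.b * x.c + x.b * y.c * x.d * y.d) * h2⟩

instance instMulT : Mul T := ⟨T.mul'⟩
instance instOneT : One T := ⟨⟨1, 0, 0, 1, by ring⟩⟩
instance instInvT : Inv T := ⟨fun x => ⟨x.d, x.b, x.c, x.a, by
    have hx := x.det
    linear_combination hx⟩⟩

@[simp] theorem mul_a (x y : T) : (x * y).a = x.a * y.a + x.b * y.c := rfl
@[simp] theorem mul_b (x y : T) : (x * y).b = x.a * y.b + x.b * y.d := rfl
@[simp] theorem mul_c (x y : T) : (x * y).c = x.c * y.a + x.d * y.c := rfl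
@[simp] theorem mul_d (x y : T) : (x * y).d = x.c * y.b + x.d * y.d := rfl
@[simp] theorem one_a : (1 : T).a = 1 := rfl
@[simp] theorem one_b : (1 : T).b = 0 := rfl
@[simp] theorem one_c : (1 : T).c = 0 := rfl
@[simp] theorem one_d : (1 : T).d = 1 := rfl
@[simp] theorem inv_a (x : T) : (x⁻¹).a = x.d := rfl
@[simp] theorem inv_b (x : T) : (x⁻¹).b = x.b := rfl
@[simp] theorem inv_c (x : T) : (x⁻¹).c = x.c := rfl
@[simp] theorem inv_d (x : T) : (x⁻¹).d = x.a := rfl

instance instGroupT : Group T :=
  Group.ofLeftAxioms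
    (by intro x y z; refine T.ext ?_ ?_ ?_ ?_ <;> simp <;> ring)
    (by intro x; refine T.ext ?_ ?_ ?_ ?_ <;> simp)
    (by
      intro x
      have hx := x.det
      have h2 := two_eq_zero
      refine T.ext ?_ ?_ ?_ ?_
      · simp only [mul_a, inv_a, inv_b, one_a]; linear_combination hx
      · simp only [mul_b, inv_a, inv_b, one_b]; linear_combination (x.d * x.b) * h2
      · simp only [mul_c, inv_c, inv_d, one_c]; linear_combination (x.c * x.a) * h2
      · simp only [mul_d, inv_c, inv_d, one_d]; linear_combination hx)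

instance instFiniteT : Finite T :=
  Finite.of_injective (fun x : T => (x.a, x.b, x.c, x.d)) (by
    intro x y h
    simp only [Prod.mk.injEq] at h
    exact T.ext h.1 h.2.1 h.2.2.1 h.2.2.2)

/-- The involution (transvection) attached to a vector. -/
def iv (v : F × F) : T :=
  ⟨1 + v.1 * v.2, v.1 * v.1, v.2 * v.2, 1 + v.1 * v.2, by
    have h2 := two_eq_zero
    linear_combination (v.1 * v.2 + v.1 * v.1 * v.2 * v.2) * h2⟩

/-- The linear action of the group on vectors. -/
def act (x : T) (v : F × F) : F × F := (x.a * v.1 + x.b * v.2, x.c * v.1 + x.d * v.2)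

theorem act_one (v : F × F) : act 1 v = v := by
  apply Prod.ext <;> simp [act]

theorem act_mul (x y : T) (v : F × F) : act (x * y) v = act x (act y v) := by
  apply Prod.ext <;> simp [act] <;> ring

theorem act_iv (w v : F × F) : act (iv w) v = vop v w := by
  apply Prod.ext <;> simp [act, iv, vop] <;> ring

theorem iv_inv (w : F × F) : (iv w)⁻¹ = iv w := rfl

theorem iv_zero : iv (0, 0) = 1 := by
  refine T.ext ?_ ?_ ?_ ?_ <;> simp [iv]

theorem mul_iv (x : T) (v : F × F) : x * iv v = iv (act x v) * x := by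
  have hx := x.det
  have h2 := two_eq_zero
  refine T.ext ?_ ?_ ?_ ?_
  · simp only [mul_a, iv, act]
    linear_combination (-(x.a * v.1 * v.2 + x.b * v.2 * v.2)) * hx
      - (x.a * x.a * x.c * v.1 * v.1 + x.a * x.b * x.c * v.1 * v.2) * h2
  · simp only [mul_b, iv, act]
    linear_combination (-(x.a * v.1 * v.1 + x.b * v.1 * v.2)) * hx
      - (x.b * x.b * x.d * v.2 * v.2 + x.a * x.b * x.d * v.1 * v.2) * h2
  · simp only [mul_c, iv, act]
    linear_combination (-(x.c * v.1 * v.2 + x.d * v.2 * v.2)) * hx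
      - (x.a * x.c * x.c * v.1 * v.1 + x.a * x.c * x.d * v.1 * v.2) * h2
  · simp only [mul_d, iv, act]
    linear_combination (-(x.c * v.1 * v.1 + x.d * v.1 * v.2)) * hx
      - (x.b * x.c * x.d * v.1 * v.2 + x.b * x.d * x.d * v.2 * v.2) * h2

theorem conj_iv (x : T) (v : F × F) : x * iv v * x⁻¹ = iv (act x v) := by
  rw [mul_iv, mul_assoc, mul_inv_cancel, mul_one]

/-- First basis vector. -/
def e₁ : F × F := (1, 0)

/-- Second basis vector. -/
def e₂ : F × F := (0, 1)

theorem act_e₁ (x : T) : act x e₁ = (x.a, x.c) := by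
  apply Prod.ext <;> simp [act, e₁]

theorem act_e₂ (x : T) : act x e₂ = (x.b, x.d) := by
  apply Prod.ext <;> simp [act, e₂]

theorem iv_iv (w v : F × F) : act (iv w) (act (iv w) v) = v := by
  rw [← act_mul]
  have : iv w * iv w = 1 := by
    conv_lhs => rw [← iv_inv w]
    exact inv_mul_cancel (iv w)
  rw [this, act_one]

/-- The vectors whose involutions lie in a subgroup. -/
def Vec (K : Subgroup T) : Set (F × F) := {v | iv v ∈ K}

theorem Vec_zero (K : Subgroup T) : ((0, 0) : F × F) ∈ Vec K := by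
  show iv (0, 0) ∈ K
  rw [iv_zero]
  exact K.one_mem

theorem Vec_act (K : Subgroup T) {x : T} (hx : x ∈ K) {v : F × F} (hv : v ∈ Vec K) :
    act x v ∈ Vec K := by
  show iv (act x v) ∈ K
  rw [← conj_iv]
  exact K.mul_mem (K.mul_mem hx hv) (K.inv_mem hx)

theorem Vec_vop (K : Subgroup T) {v w : F × F} (hv : v ∈ Vec K) (hw : w ∈ Vec K) :
    vop v w ∈ Vec K := by
  rw [← act_iv]
  exact Vec_act K hw hv

end Vale.Agent.Lib.P183.SL64
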