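import Vale.Agent.Lib.P183.SL64.Checks
import Vale.Agent.Lib.P183.SL64.Group

/-!
# Classification of the closed sets of vectors containing the base vectors
-/

namespace Vale.Agent.Lib.P183.SL64

theorem tb_eq (S c : Nat) : tb S c = S.testBit c := by
  rw [Nat.testBit_eq_decide_div_mod_eq]
  unfold tb
  have h : Nat.shiftRight S c = S / 2 ^ c := Nat.shiftRight_eq_div_pow S c
  rw [h]
  by_cases h1 : (S / 2 ^ c) % 2 = 1
  · rw [decide_eq_true h1]
    have : Nat.mod (S / 2 ^ c) 2 = 1 := h1
    rw [this]
    rfl
  · rw [decide_eq_false h1]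
    have h2 : Nat.mod (S / 2 ^ c) 2 ≠ 1 := h1
    rw [Bool.eq_false_iff]
    intro h3
    exact h2 (Nat.eq_of_beq_eq_true h3)

theorem tb_setB {S n c : Nat} (h : tb (setB S n) c = true) : tb S c = true ∨ c = n := by
  rw [tb_eq] at h ⊢
  have h0 : setB S n = S ||| 2 ^ n := by
    show S ||| (1 <<< n) = S ||| 2 ^ n
    rw [Nat.one_shiftLeft]
  rw [h0, Nat.testBit_or, Bool.or_eq_true] at h
  rcases h with h | h
  · exact Or.inl h
  · right
    rw [Nat.testBit_two_pow] at h
    exact (of_decide_eq_true h).symm

theorem tb_zero (c : Nat) : tb 0 c = false := by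
  rw [tb_eq]
  exact Nat.zero_testBit c

/-- A closed set of vectors containing the base vectors. -/
structure ClosedS (S : Set (F × F)) : Prop where
  zero : ((0, 0) : F × F) ∈ S
  e1 : e₁ ∈ S
  e2 : e₂ ∈ S
  vop : ∀ v w, v ∈ S → w ∈ S → vop v w ∈ S

/-- All bits of the bitset name members of `S`. -/
def Good (S : Set (F × F)) (N : Nat) : Prop := ∀ c, tb N c = true → dec c ∈ S

theorem good_setB {S : Set (F × F)} {N n : Nat} (h : Good S N) (hn : dec n ∈ S) :
    Good S (setB N n) := by
  intro c hc
  rcases tb_setB hc with h1 | h1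
  · exact h c h1
  · rw [h1]; exact hn

theorem dec_0 : dec 0 = ((0, 0) : F × F) := rfl
theorem dec_1 : dec 1 = e₂ := rfl
theorem dec_64 : dec 64 = e₁ := rfl
theorem dec_65 : dec 65 = vop e₁ e₂ := rfl

theorem good_base {S : Set (F × F)} (hS : ClosedS S) : Good S baseS := by
  have h0 : Good S 0 := by
    intro c hc
    rw [tb_zero] at hc
    exact absurd hc (by simp)
  unfold baseS
  refine good_setB (good_setB (good_setB (good_setB h0 ?_) ?_) ?_) ?_
  · rw [dec_0]; exact hS.zero
  · rw [dec_1]; exact hS.e2
  · rw [dec_64]; exact hS.e1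
  · rw [dec_65]; exact hS.vop _ _ hS.e1 hS.e2

theorem good_stepA {S : Set (F × F)} (hS : ClosedS S) {a b N : Nat} (ha : a < 4096) (hb : b < 4096)
    (h : Good S N) : Good S (stepA a b N) := by
  unfold stepA
  cases h1 : tb N a with
  | false => exact h
  | true =>
    cases h2 : tb N b with
    | false => exact h
    | true =>
      simp only [cond_true]
      refine good_setB h ?_
      rw [vopN_dec ha hb]
      exact hS.vop _ _ (h a h1) (h b h2)

theorem good_stepS {S : Set (F × F)} (hS : ClosedS S) (st : Nat) {N : Nat} (h : Good S N) :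
    Good S (stepS st N) :=
  good_stepA hS (Nat.mod_lt _ (by norm_num)) (Nat.mod_lt _ (by norm_num)) h

theorem good_runP {S : Set (F × F)} (hS : ClosedS S) (fuel : Nat) :
    ∀ (P N : Nat), Good S N → Good S (runP fuel P N) := by
  induction fuel with
  | zero => intro P N h; exact h
  | succ n ih =>
    intro P N h
    rw [runP_succ]
    cases Nat.beq P 0 with
    | true => exact h
    | false =>
      cases Nat.beq N 0 with
      | true => exact h
      | false => exact ih _ _ (good_stepS hS _ h)

theorem slp_chk {j : Nat} (hj : j < 7) :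
    chkFinal j (runP 5000 (slpOf j) (setB baseS (tauN j))) = true := by
  interval_cases j
  · exact slp_chk0
  · exact slp_chk1
  · exact slp_chk2
  · exact slp_chk3
  · exact slp_chk4
  · exact slp_chk5
  · exact slp_chk6

theorem tauN_lt (j : Nat) : tauN j < 4096 := Nat.mod_lt _ (by norm_num)

theorem uN_lt (j : Nat) : uN j < 4096 := Nat.mod_lt _ (by norm_num)

/-- From the chosen code of a class one derives the whole set of the class. -/
theorem closed_of_tau {S : Set (F × F)} (hS : ClosedS S) {j : Nat} (hj : j < 7)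
    (h : dec (tauN j) ∈ S) {c : Nat} (hc : c < 4096) (hm : memN j c = true) : dec c ∈ S := by
  have h1 := allBelow_spec (slp_chk hj) c hc
  rw [hm] at h1
  have h2 : tb (runP 5000 (slpOf j) (setB baseS (tauN j))) c = true := h1
  exact good_runP hS _ _ _ (good_setB (good_base hS) h) c h2

/-- From any vector one derives the chosen code of its class. -/
theorem tau_of_vec {S : Set (F × F)} (hS : ClosedS S) {v : Nat} (hv : v < 4096) (h : dec v ∈ S) :
    dec (tauN (cl v)) ∈ S := by
  have h1 := allBelow_spec chkV_true v hv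
  cases h0 : Nat.beq (cl v) 0 with
  | true =>
    have h3 : cl v = 0 := Nat.eq_of_beq_eq_true h0
    rw [h3]
    show dec 64 ∈ S
    rw [dec_64]
    exact hS.e1
  | false =>
    rw [h0] at h1
    have h2 : tb (runP 9 (progOf v) (setB baseS v)) (tauN (cl v)) = true := h1
    exact good_runP hS _ _ _ (good_setB (good_base hS) h) _ h2

theorem join_of {S : Set (F × F)} (hS : ClosedS S) {i j k P : Nat} (hk : chkJ i j k P = true)
    (hi : dec (tauN i) ∈ S) (hj : dec (tauN j) ∈ S) : dec (tauN k) ∈ S :=
  good_runP hS _ _ _ (good_setB (good_setB (good_base hS) hi) hj) _ hk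

theorem tau_spec {i : Nat} (hi : i < 7) :
    tauN i = vopN 64 (uN i) ∧ memN i (uN i) = true ∧ cl (tauN i) = i := by
  have h := allBelow_spec tau_chk i hi
  cases h1 : Nat.beq (tauN i) (vopN 64 (uN i)) with
  | false => rw [h1] at h; exact absurd h (by simp)
  | true =>
    rw [h1] at h
    cases h2 : memN i (uN i) with
    | false => rw [h2] at h; exact absurd h (by simp)
    | true =>
      rw [h2] at h
      exact ⟨Nat.eq_of_beq_eq_true h1, rfl, Nat.eq_of_beq_eq_true h⟩

theorem cl_lt {c : Nat} (hc : c < 4096) : cl c < 7 := by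
  have h := allBelow_spec cl_chk c hc
  have h2 := Nat.le_of_ble_eq_true h
  omega

theorem leN_refl {i : Nat} (hi : i < 7) : leN i i = true := allBelow_spec le_refl_chk i hi

theorem leN_trans {i j k : Nat} (hi : i < 7) (hj : j < 7) (hk : k < 7) (h1 : leN i j = true)
    (h2 : leN j k = true) : leN i k = true := by
  have h := allBelow_spec (allBelow_spec (allBelow_spec le_trans_chk i hi) j hj) k hk
  rw [h1, h2] at h
  exact h

theorem memN_tau {i j : Nat} (hi : i < 7) (h : leN i j = true) : memN j (tauN i) = true := by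
  unfold memN
  rw [(tau_spec hi).2.2]
  exact h

/-- Downward closure of the predicate in the order of classes. -/
theorem tau_down {S : Set (F × F)} (hS : ClosedS S) {i j : Nat} (hi : i < 7) (hj : j < 7)
    (h : leN i j = true) (hm : dec (tauN j) ∈ S) : dec (tauN i) ∈ S :=
  closed_of_tau hS hj hm (tauN_lt i) (memN_tau hi h)

/-- **Classification.** Every closed set containing the base vectors is one of the seven sets. -/
theorem classify {S : Set (F × F)} (hS : ClosedS S) :
    ∃ m, m < 7 ∧ ∀ v : F × F, v ∈ S ↔ memN m (enc v) = true := by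
  let P : Nat → Prop := fun i => dec (tauN i) ∈ S
  have hP0 : P 0 := by
    show dec 64 ∈ S
    rw [dec_64]
    exact hS.e1
  -- a candidate `m` works as soon as all classes outside its ideal are excluded
  have key : ∀ m, m < 7 → P m → (∀ i, i < 7 → P i → leN i m = true) →
      ∃ m, m < 7 ∧ ∀ v : F × F, v ∈ S ↔ memN m (enc v) = true := by
    intro m hm hPm hmax
    refine ⟨m, hm, fun v => ⟨fun hv => ?_, fun hv => ?_⟩⟩
    · have h1 : dec (enc v) ∈ S := by rw [dec_enc]; exact hv
      exact hmax _ (cl_lt (enc_lt v)) (tau_of_vec hS (enc_lt v) h1)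
    · have h1 := closed_of_tau hS hm hPm (enc_lt v) hv
      rwa [dec_enc] at h1
  have J12 := fun h1 h2 => join_of hS j12 h1 h2
  have J13 := fun h1 h2 => join_of hS j13 h1 h2
  have J14 := fun h1 h2 => join_of hS j14 h1 h2
  have J15 := fun h1 h2 => join_of hS j15 h1 h2
  have J23 := fun h1 h2 => join_of hS j23 h1 h2
  have J24 := fun h1 h2 => join_of hS j24 h1 h2
  have J45 := fun h1 h2 => join_of hS j45 h1 h2
  by_cases h6 : P 6
  · refine key 6 (by norm_num) h6 (fun i hi _ => ?_)
    interval_cases i <;> rfl
  by_cases h4 : P 4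
  · refine key 4 (by norm_num) h4 (fun i hi hPi => ?_)
    interval_cases i
    · rfl
    · exact absurd (J14 hPi h4) h6
    · exact absurd (J24 hPi h4) h6
    · rfl
    · rfl
    · exact absurd (J45 h4 hPi) h6
    · exact absurd hPi h6
  by_cases h5 : P 5
  · refine key 5 (by norm_num) h5 (fun i hi hPi => ?_)
    interval_cases i
    · rfl
    · exact absurd (J15 hPi h5) h6
    · rfl
    · rfl
    · exact absurd hPi h4
    · rfl
    · exact absurd hPi h6
  by_cases h1 : P 1
  · refine key 1 (by norm_num) h1 (fun i hi hPi => ?_)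
    interval_cases i
    · rfl
    · rfl
    · exact absurd (J12 h1 hPi) h6
    · exact absurd (J13 h1 hPi) h6
    · exact absurd hPi h4
    · exact absurd hPi h5
    · exact absurd hPi h6
  by_cases h2 : P 2
  · refine key 2 (by norm_num) h2 (fun i hi hPi => ?_)
    interval_cases i
    · rfl
    · exact absurd hPi h1
    · rfl
    · exact absurd (J23 h2 hPi) h5
    · exact absurd hPi h4
    · exact absurd hPi h5
    · exact absurd hPi h6
  by_cases h3 : P 3
  · refine key 3 (by norm_num) h3 (fun i hi hPi => ?_)
    interval_cases i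
    · rfl
    · exact absurd hPi h1
    · exact absurd hPi h2
    · rfl
    · exact absurd hPi h4
    · exact absurd hPi h5
    · exact absurd hPi h6
  · refine key 0 (by norm_num) hP0 (fun i hi hPi => ?_)
    interval_cases i
    · rfl
    · exact absurd hPi h1
    · exact absurd hPi h2
    · exact absurd hPi h3
    · exact absurd hPi h4
    · exact absurd hPi h5
    · exact absurd hPi h6

end Vale.Agent.Lib.P183.SL64
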