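import Vale.Agent.Lib.P183.SL64.Interval
import Vale.Agent.Lib.P183.Seven

/-!
# The order isomorphism of the seven element lattice with the interval
-/

namespace Vale.Agent.Lib.P183.SL64

open Vale.Agent.Lib.P183

/-- Indices of the seven elements. -/
def idx : Seven → Nat
  | .bot => 0
  | .a => 1
  | .b => 2
  | .c => 3
  | .d => 4
  | .e => 5
  | .top => 6

theorem idx_lt (x : Seven) : idx x < 7 := by cases x <;> decide

theorem le_iff_leN (x y : Seven) : x ≤ y ↔ leN (idx x) (idx y) = true := by
  have h : Seven.leB x y = leN (idx x) (idx y) := by cases x <;> cases y <;> rfl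
  show Seven.leB x y = true ↔ _
  rw [h]

theorem exists_idx {m : Nat} (hm : m < 7) : ∃ x : Seven, idx x = m := by
  interval_cases m
  · exact ⟨.bot, rfl⟩
  · exact ⟨.a, rfl⟩
  · exact ⟨.b, rfl⟩
  · exact ⟨.c, rfl⟩
  · exact ⟨.d, rfl⟩
  · exact ⟨.e, rfl⟩
  · exact ⟨.top, rfl⟩

theorem leN_zero {i : Nat} (hi : i < 7) : leN 0 i = true := by
  interval_cases i <;> rfl

/-- The base subgroup: it is generated by three involutions and is isomorphic to `S₃`. -/
def HH : Subgroup T := PP 0

/-- The map from the seven element lattice to the interval. -/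
def toIcc (x : Seven) : Set.Icc HH (⊤ : Subgroup T) :=
  ⟨PP (idx x), (PP_le_iff (by norm_num) (idx_lt x)).2 (leN_zero (idx_lt x)), le_top⟩

theorem toIcc_le_iff (x y : Seven) : toIcc x ≤ toIcc y ↔ x ≤ y := by
  rw [le_iff_leN]
  exact PP_le_iff (idx_lt x) (idx_lt y)

theorem toIcc_surj : Function.Surjective toIcc := by
  rintro ⟨K, hK, -⟩
  obtain ⟨m, hm, rfl⟩ := interval_surj hK
  obtain ⟨x, rfl⟩ := exists_idx hm
  exact ⟨x, rfl⟩

/-- The order isomorphism of the seven element lattice with the interval `[HH, T]`. -/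
noncomputable def isoIcc : Seven ≃o Set.Icc HH (⊤ : Subgroup T) :=
  RelIso.ofSurjective (OrderEmbedding.ofMapLEIff toIcc toIcc_le_iff) toIcc_surj

end Vale.Agent.Lib.P183.SL64
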