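import Vale.Agent.Lib.P183.SL64.Classify

/-!
# The interval above the subgroup generated by the base involutions
-/

namespace Vale.Agent.Lib.P183.SL64

/-- The subgroup generated by the involutions of the vectors of a class set. -/
def PP (i : Nat) : Subgroup T := Subgroup.closure (iv '' {v | memN i (enc v) = true})

theorem iv_mem_PP {i : Nat} {v : F × F} (h : memN i (enc v) = true) : iv v ∈ PP i :=
  Subgroup.subset_closure ⟨v, h, rfl⟩

theorem memN_closed {i : Nat} (hi : i < 7) {v w : F × F} (hv : memN i (enc v) = true)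
    (hw : memN i (enc w) = true) : memN i (enc (vop v w)) = true := by
  rw [← vopN_enc]
  have hlt : i = 6 ∨ i < 6 := by omega
  rcases hlt with h6 | h6
  · subst h6
    exact allBelow_spec top_chk _ (by rw [vopN_enc]; exact enc_lt _)
  · have hc : chkClosed i = true := by
      interval_cases i
      · exact closed0
      · exact closed1
      · exact closed2
      · exact closed3
      · exact closed4
      · exact closed5
    have h1 := allBelow_spec hc _ (enc_lt v)
    rw [hv] at h1
    simp only [cond_true] at h1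
    have h2 := allBelow_spec h1 _ (enc_lt w)
    rw [hw] at h2
    exact h2

theorem act_act_inv (x : T) (v : F × F) : act x (act x⁻¹ v) = v := by
  rw [← act_mul, mul_inv_cancel, act_one]

/-- The subgroup `PP i` preserves the class set. -/
theorem PP_pres {i : Nat} (hi : i < 7) {x : T} (hx : x ∈ PP i) (v : F × F) :
    memN i (enc v) = true ↔ memN i (enc (act x v)) = true := by
  induction hx using Subgroup.closure_induction generalizing v with
  | mem x hx =>
    obtain ⟨w, hw, rfl⟩ := hx
    have hw' : memN i (enc w) = true := hw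
    constructor
    · intro hv
      rw [act_iv]
      exact memN_closed hi hv hw'
    · intro hv
      rw [act_iv] at hv
      have h1 := memN_closed hi hv hw'
      rw [← act_iv, ← act_iv, iv_iv] at h1
      exact h1
  | one => rw [act_one]
  | mul x y _ _ hx hy => rw [act_mul, ← hx, ← hy]
  | inv x _ hx =>
    have := hx (act x⁻¹ v)
    rw [act_act_inv] at this
    exact this.symm

theorem enc_e₁ : enc e₁ = 64 := rfl
theorem enc_e₂ : enc e₂ = 1 := rfl
theorem enc_e₃ : enc ((1, 1) : F × F) = 65 := rfl
theorem enc_zero : enc ((0, 0) : F × F) = 0 := rfl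

theorem mem_base {i : Nat} (hi : i < 7) :
    memN i 0 = true ∧ memN i 1 = true ∧ memN i 64 = true ∧ memN i 65 = true := by
  interval_cases i <;> decide +kernel

/-- An involution in `PP i` comes from the class set. -/
theorem memN_of_iv_mem {i : Nat} (hi : i < 7) {v : F × F} (h : iv v ∈ PP i) :
    memN i (enc v) = true := by
  have h1 : memN i (enc (act (iv v) e₁)) = true :=
    (PP_pres hi h e₁).1 (by rw [enc_e₁]; exact (mem_base hi).2.2.1)
  have h2 : memN i (enc (act (iv v) e₂)) = true :=
    (PP_pres hi h e₂).1 (by rw [enc_e₂]; exact (mem_base hi).2.1)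
  rw [act_iv, ← vopN_enc, enc_e₁] at h1
  rw [act_iv, ← vopN_enc, enc_e₂] at h2
  have h3 := allBelow_spec (allBelow_spec conv_chk i hi) (enc v) (enc_lt v)
  cases h4 : memN i (enc v) with
  | true => rfl
  | false =>
    rw [h4] at h3
    simp only [cond_false] at h3
    rw [h1, h2] at h3
    exact absurd h3 (by simp)

theorem mem_PP_iff_vec {i : Nat} (hi : i < 7) {v : F × F} :
    iv v ∈ PP i ↔ memN i (enc v) = true := ⟨memN_of_iv_mem hi, iv_mem_PP⟩

/-- The orbit of the first basis vector, together with zero, is closed. -/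
theorem orbit_closed {i : Nat} (hi : i < 7) :
    ClosedS {u : F × F | u = (0, 0) ∨ ∃ z ∈ PP i, act z e₁ = u} := by
  have hb := mem_base hi
  refine ⟨Or.inl rfl, Or.inr ⟨1, (PP i).one_mem, act_one _⟩, Or.inr ⟨iv (1, 1), ?_, ?_⟩, ?_⟩
  · apply iv_mem_PP
    rw [enc_e₃]
    exact hb.2.2.2
  · rw [act_iv]
    rfl
  · rintro a b ha hb'
    rcases hb' with rfl | ⟨z', hz', rfl⟩
    · rcases ha with rfl | ⟨z, hz, rfl⟩
      · exact Or.inl rfl
      · refine Or.inr ⟨z, hz, ?_⟩
        apply Prod.ext <;> simp [vop]
    · rcases ha with rfl | ⟨z, hz, rfl⟩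
      · left
        apply Prod.ext <;> simp [vop]
      · right
        have hm : memN i (enc (act z' e₁)) = true :=
          (PP_pres hi hz' e₁).1 (by rw [enc_e₁]; exact hb.2.2.1)
        refine ⟨iv (act z' e₁) * z, (PP i).mul_mem (iv_mem_PP hm) hz, ?_⟩
        rw [act_mul, act_iv]

/-- The subgroup `PP i` is transitive on the nonzero vectors of the class set. -/
theorem orbit_all {i : Nat} (hi : i < 7) {v : F × F} (hv : memN i (enc v) = true) :
    v = (0, 0) ∨ ∃ z ∈ PP i, act z e₁ = v := by
  have hc := orbit_closed hi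
  have hτ := tau_spec hi
  have hu : memN i (enc (dec (uN i))) = true := by
    rw [enc_dec (uN_lt i)]
    exact hτ.2.1
  have h1 : dec (tauN i) ∈ {u : F × F | u = (0, 0) ∨ ∃ z ∈ PP i, act z e₁ = u} := by
    right
    refine ⟨iv (dec (uN i)), iv_mem_PP hu, ?_⟩
    rw [act_iv, hτ.1, vopN_dec (by norm_num) (uN_lt i), dec_64]
  have h2 := closed_of_tau hc hi h1 (enc_lt v) hv
  rw [dec_enc] at h2
  exact h2

theorem one_ne_zero_F : (1 : F) ≠ 0 := by
  intro h
  have := congrArg F.val h
  exact absurd this (by decide)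

/-- Characterisation of the subgroups `PP i` by the columns. -/
theorem mem_PP_of_columns {i : Nat} (hi : i < 7) {x : T} (h1 : memN i (enc (act x e₁)) = true)
    (h2 : memN i (enc (act x e₂)) = true) : x ∈ PP i := by
  rcases orbit_all hi h1 with h0 | ⟨z, hz, hzx⟩
  · exfalso
    rw [act_e₁] at h0
    have ha : x.a = 0 := congrArg Prod.fst h0
    have hc : x.c = 0 := congrArg Prod.snd h0
    have hd := x.det
    rw [ha, hc] at hd
    simp only [zero_mul, mul_zero, add_zero] at hd
    exact one_ne_zero_F hd.symm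
  · -- reduce to an upper unipotent matrix
    have hzi : z⁻¹ ∈ PP i := (PP i).inv_mem hz
    set y := z⁻¹ * x with hy
    have hy1 : act y e₁ = e₁ := by
      rw [hy, act_mul, ← hzx, ← act_mul, inv_mul_cancel, act_one]
    have hy2 : memN i (enc (act y e₂)) = true := by
      rw [hy, act_mul]
      exact (PP_pres hi hzi _).1 h2
    rw [act_e₁] at hy1
    have ya : y.a = 1 := congrArg Prod.fst hy1
    have yc : y.c = 0 := congrArg Prod.snd hy1
    have yd : y.d = 1 := by
      have hd := y.det
      rw [ya, yc] at hd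
      simpa using hd
    rw [act_e₂, yd] at hy2
    have hs := allBelow_spec (allBelow_spec sq_mem_chk i hi) y.b.val y.b.lt
    have henc : Nat.add (Nat.mul 64 y.b.val) 1 = enc (y.b, (1 : F)) := rfl
    rw [henc, hy2] at hs
    have hslt : sqN y.b.val < 64 := Nat.mod_lt _ (by norm_num)
    let p : F := ⟨sqN y.b.val, hslt⟩
    have hp : p * p = y.b := by
      apply F.ext
      exact Nat.eq_of_beq_eq_true (allBelow_spec sq_chk y.b.val y.b.lt)
    have hs' : memN i (enc (p, (0 : F))) = true := by
      have henc2 : enc (p, (0 : F)) = Nat.mul 64 (sqN y.b.val) := by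
        show 64 * sqN y.b.val + 0 = _
        rfl
      rw [henc2]
      exact hs
    have hyiv : y = iv (p, 0) := by
      refine T.ext ?_ ?_ ?_ ?_
      · simp [iv, ya]
      · simp [iv, hp]
      · simp [iv, yc]
      · simp [iv, yd]
    have hyP : y ∈ PP i := by
      rw [hyiv]
      exact iv_mem_PP hs'
    have hxy : x = z * y := by
      rw [hy, mul_inv_cancel_left]
    rw [hxy]
    exact (PP i).mul_mem hz hyP

/-- The subgroups of the interval are exactly the seven subgroups `PP i`. -/
theorem interval_surj {K : Subgroup T} (hK : PP 0 ≤ K) : ∃ m, m < 7 ∧ K = PP m := by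
  have hb := mem_base (i := 0) (by norm_num)
  have h1 : e₁ ∈ Vec K := hK (iv_mem_PP (by rw [enc_e₁]; exact hb.2.2.1))
  have h2 : e₂ ∈ Vec K := hK (iv_mem_PP (by rw [enc_e₂]; exact hb.2.1))
  have hc : ClosedS (Vec K) := ⟨Vec_zero K, h1, h2, fun v w hv hw => Vec_vop K hv hw⟩
  obtain ⟨m, hm, hS⟩ := classify hc
  refine ⟨m, hm, le_antisymm ?_ ?_⟩
  · intro x hx
    exact mem_PP_of_columns hm ((hS _).1 (Vec_act K hx h1)) ((hS _).1 (Vec_act K hx h2))
  · refine (Subgroup.closure_le _).2 ?_
    rintro _ ⟨v, hv, rfl⟩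
    exact (hS v).2 hv

theorem PP_le_iff {i j : Nat} (hi : i < 7) (hj : j < 7) : PP i ≤ PP j ↔ leN i j = true := by
  constructor
  · intro h
    have hτ := tau_spec hi
    have h1 : memN i (enc (dec (tauN i))) = true := by
      rw [enc_dec (tauN_lt i)]
      unfold memN
      rw [hτ.2.2]
      exact leN_refl hi
    have h2 := memN_of_iv_mem hj (h (iv_mem_PP h1))
    rw [enc_dec (tauN_lt i)] at h2
    unfold memN at h2
    rw [hτ.2.2] at h2
    exact h2
  · intro h
    refine (Subgroup.closure_le _).2 ?_
    rintro _ ⟨v, hv, rfl⟩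
    apply iv_mem_PP
    have hv' : memN i (enc v) = true := hv
    exact leN_trans (cl_lt (enc_lt v)) hi hj hv' h

end Vale.Agent.Lib.P183.SL64
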